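import Vale.Agent.P162G.Fin1

namespace Vale.Agent.Results.P162.EvenQuadratic

open Vale.Agent.P162

/-- The mixing time of the Thorp shuffle of `n = 2 * m` cards, for every even `n ≥ 2`:
`(1 / 4) log n ≤ tmix ≤ C (log n) ^ 2` for an absolute constant `C`, and the law after any `t ≥ C (log n) ^ 2`
shuffles is within `1 / 4` of uniform. -/
theorem result :
    ∃ C : ℝ, 0 < C ∧ ∀ m : ℕ, 1 ≤ m →
      1 / 4 * Real.log (2 * m : ℕ) ≤ (tmix m : ℝ) ∧
      (tmix m : ℝ) ≤ C * Real.log (2 * m : ℕ) ^ 2 ∧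
      ∀ t : ℕ, C * Real.log (2 * m : ℕ) ^ 2 ≤ (t : ℝ) → tvUnif m (thorpPow m t) ≤ 1 / 4 :=
  gen_quadratic

end Vale.Agent.Results.P162.EvenQuadratic
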