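import Vale.Agent.P162.H10

namespace Vale.Agent.Results.P162.LinearMixing

open Vale.Agent.P162

/-- The mixing time of the Thorp shuffle of `n = 2 * 2 ^ k = 2 ^ d` cards, `d = k + 1`, is of order `d = log₂ n`:
there is an absolute constant `C > 0` such that for every `k`
`(k + 1) / 2 ≤ tmix ≤ C * (k + 1)`, and the law after any `t ≥ C * (k + 1)` shuffles is within `1 / 4` of uniform. -/
theorem result :
    ∃ C : ℝ, 0 < C ∧ ∀ k : ℕ,
      ((k : ℝ) + 1) / 2 ≤ (tmix (2 ^ k) : ℝ) ∧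
      (tmix (2 ^ k) : ℝ) ≤ C * ((k : ℝ) + 1) ∧
      ∀ t : ℕ, C * ((k : ℝ) + 1) ≤ (t : ℝ) → tvUnif (2 ^ k) (thorpPow (2 ^ k) t) ≤ 1 / 4 := by
  obtain ⟨C, hC0, hC⟩ := mixing_linear
  refine ⟨C, by exact_mod_cast hC0, fun k => ⟨?_, ?_, ?_⟩⟩
  · apply lower_linear
    have hne : {t : ℕ | tvUnif (2 ^ k) (thorpPow (2 ^ k) t) ≤ 1 / 4}.Nonempty :=
      ⟨C * (k + 1), hC k _ le_rfl⟩
    exact Nat.sInf_mem hne
  · have h1 : tmix (2 ^ k) ≤ C * (k + 1) := Nat.sInf_le (hC k _ le_rfl)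
    exact_mod_cast h1
  · intro t ht
    exact hC k t (by exact_mod_cast ht)

end Vale.Agent.Results.P162.LinearMixing
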