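import Vale.Agent.P162.D

namespace Vale.Agent.Results.P162.QuadraticMixing

open Vale.Agent.P162

/-- For a deck of `n = 2 * 2 ^ k` cards, i.e. `n = 2 ^ d` with `d = k + 1`, after any `t ≥ 288 d ^ 2`
Thorp shuffles the law is within `1 / 4` of uniform in total variation, and so `tmix ≤ 288 d ^ 2`. -/
theorem result :
    ∀ k : ℕ,
      (∀ t : ℕ, 288 * (k + 1) ^ 2 ≤ t → tvUnif (2 ^ k) (thorpPow (2 ^ k) t) ≤ 1 / 4) ∧
      tmix (2 ^ k) ≤ 288 * (k + 1) ^ 2 := by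
  intro k
  refine ⟨fun t ht => (tvUnif_antitone (2 ^ k) ht).trans (main_tv k), ?_⟩
  exact Nat.sInf_le (main_tv k)

end Vale.Agent.Results.P162.QuadraticMixing
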